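import Vale.Agent.P088.R2.H961.Cal
import Mathlib.Analysis.SpecialFunctions.SmoothTransition

/-!
# P088, row TOP: the cut-off functions
-/

open MeasureTheory Set Filter
open scoped ContDiff Matrix Topology

noncomputable section

namespace Vale.Agent.P088.R2.H205

open Vale.Agent.P088.LR Vale.Agent.P088.HY Vale.Agent.P088.R2.H961

variable {n : ℕ}

theorem bd_of {f : ℝ → ℝ} (hf : Continuous f) (h0 : ∀ x, x < 0 → f x = 0)
    (h1 : ∀ x, 1 < x → f x = 0) : ∃ M, 0 ≤ M ∧ ∀ x, |f x| ≤ M := by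
  obtain ⟨M, hM⟩ := (isCompact_Icc (a := (0 : ℝ)) (b := 1)).exists_bound_of_continuousOn
    hf.continuousOn
  refine ⟨max M 0, le_max_right _ _, fun x => ?_⟩
  rcases lt_or_ge x 0 with hx | hx
  · rw [h0 x hx]; simp
  rcases lt_or_ge 1 x with hy | hy
  · rw [h1 x hy]; simp
  · exact (hM x ⟨hx, hy⟩).trans (le_max_left _ _)

abbrev S0 : ℝ → ℝ := Real.smoothTransition

abbrev S1 : ℝ → ℝ := deriv S0

abbrev S2 : ℝ → ℝ := deriv S1

theorem sm0 : ContDiff ℝ ∞ S0 := Real.smoothTransition.contDiff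

theorem sm1 : ContDiff ℝ ∞ S1 := (contDiff_infty_iff_deriv.1 sm0).2

theorem sm2 : ContDiff ℝ ∞ S2 := (contDiff_infty_iff_deriv.1 sm1).2

theorem S1_lt {x : ℝ} (hx : x < 0) : S1 x = 0 := by
  have : S0 =ᶠ[𝓝 x] fun _ => 0 := by
    filter_upwards [Iio_mem_nhds hx] with y hy using
      Real.smoothTransition.zero_of_nonpos (le_of_lt hy)
  rw [S1, this.deriv_eq]; simp

theorem S1_gt {x : ℝ} (hx : 1 < x) : S1 x = 0 := by
  have : S0 =ᶠ[𝓝 x] fun _ => 1 := by
    filter_upwards [Ioi_mem_nhds hx] with y hy using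
      Real.smoothTransition.one_of_one_le (le_of_lt hy)
  rw [S1, this.deriv_eq]; simp

theorem S2_lt {x : ℝ} (hx : x < 0) : S2 x = 0 := by
  have : S1 =ᶠ[𝓝 x] fun _ => 0 := by
    filter_upwards [Iio_mem_nhds hx] with y hy using S1_lt hy
  rw [S2, this.deriv_eq]; simp

theorem S2_gt {x : ℝ} (hx : 1 < x) : S2 x = 0 := by
  have : S1 =ᶠ[𝓝 x] fun _ => 0 := by
    filter_upwards [Ioi_mem_nhds hx] with y hy using S1_gt hy
  rw [S2, this.deriv_eq]; simp

theorem exists_bd : ∃ M, 0 ≤ M ∧ (∀ x, |S1 x| ≤ M) ∧ ∀ x, |S2 x| ≤ M := by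
  obtain ⟨M1, h1, h1'⟩ := bd_of sm1.continuous (fun _ => S1_lt) (fun _ => S1_gt)
  obtain ⟨M2, h2, h2'⟩ := bd_of sm2.continuous (fun _ => S2_lt) (fun _ => S2_gt)
  exact ⟨max M1 M2, h1.trans (le_max_left _ _), fun x => (h1' x).trans (le_max_left _ _),
    fun x => (h2' x).trans (le_max_right _ _)⟩

/-- The one-variable profile. -/
def qq (e ρ t : ℝ) : ℝ := if t ≤ 0 then 0 else S0 (1 + e * Real.log (t / ρ))

theorem qq_pos {e ρ t : ℝ} (ht : 0 < t) : qq e ρ t = S0 (1 + e * Real.log (t / ρ)) := by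
  unfold qq; rw [if_neg (not_le.2 ht)]

theorem qq_small {e ρ t : ℝ} (he : 0 < e) (hr : 0 < ρ) (ht : t ≤ ρ * Real.exp (-(1 / e))) :
    qq e ρ t = 0 := by
  unfold qq
  split_ifs with h
  · rfl
  · have h := not_le.1 h
    apply Real.smoothTransition.zero_of_nonpos
    have h1 : t / ρ ≤ Real.exp (-(1 / e)) := by
      rw [div_le_iff₀ hr]; linarith
    have h2 : Real.log (t / ρ) ≤ -(1 / e) := by
      have := Real.log_le_log (div_pos h hr) h1
      rwa [Real.log_exp] at this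
    have h3 : e * Real.log (t / ρ) ≤ e * (-(1 / e)) := mul_le_mul_of_nonneg_left h2 he.le
    have h4 : e * (-(1 / e)) = -1 := by field_simp
    linarith

theorem qq_one {e ρ t : ℝ} (he : 0 < e) (hr : 0 < ρ) (ht : ρ ≤ t) : qq e ρ t = 1 := by
  rw [qq_pos (hr.trans_le ht)]
  apply Real.smoothTransition.one_of_one_le
  have : 0 ≤ Real.log (t / ρ) := Real.log_nonneg (by rwa [le_div_iff₀ hr, one_mul])
  nlinarith [mul_nonneg he.le this]

theorem qq_nonneg (e ρ t : ℝ) : 0 ≤ qq e ρ t := by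
  unfold qq; split_ifs
  · rfl
  · exact Real.smoothTransition.nonneg _

theorem qq_le (e ρ t : ℝ) : qq e ρ t ≤ 1 := by
  unfold qq; split_ifs
  · exact zero_le_one
  · exact Real.smoothTransition.le_one _

theorem qq_smooth {e ρ : ℝ} (he : 0 < e) (hr : 0 < ρ) : ContDiff ℝ ∞ (qq e ρ) := by
  rw [contDiff_iff_contDiffAt]
  intro t
  have hc : 0 < ρ * Real.exp (-(1 / e)) := by positivity
  rcases lt_or_ge t (ρ * Real.exp (-(1 / e))) with h | h
  · have : qq e ρ =ᶠ[𝓝 t] fun _ => 0 := by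
      filter_upwards [Iio_mem_nhds h] with s hs using qq_small he hr (le_of_lt hs)
    exact contDiffAt_const.congr_of_eventuallyEq this
  · have ht : 0 < t := hc.trans_le h
    have : qq e ρ =ᶠ[𝓝 t] fun t => S0 (1 + e * Real.log (t / ρ)) := by
      filter_upwards [Ioi_mem_nhds ht] with s hs using qq_pos hs
    refine ContDiffAt.congr_of_eventuallyEq ?_ this
    have hl : ContDiffAt ℝ ∞ (fun t => Real.log (t / ρ)) t :=
      (contDiffAt_id.div_const ρ).log (by simp only [id_eq]; positivity)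
    exact sm0.contDiffAt.comp t (contDiffAt_const.add (contDiffAt_const.mul hl))

theorem cont_rr : ContDiff ℝ ∞ (rr : V n → ℝ) := by
  unfold rr; exact (contDiff_const.sub cont_sq).div_const _

theorem cpt_rr {c : ℝ} (hc : 0 < c) : IsCompact {x : V n | c ≤ rr x} := by
  refine Metric.isCompact_of_isClosed_isBounded
    (isClosed_le continuous_const cont_rr.continuous) ?_
  refine (Metric.isBounded_closedBall (x := (0 : V n)) (r := 1)).subset ?_
  intro x hx
  have hx : c ≤ rr x := hx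
  have h1 : HY.sq x ≤ 1 := by unfold rr at hx; linarith
  rw [mem_closedBall_zero_iff, pi_norm_le_iff_of_nonneg zero_le_one]
  intro i
  have h2 : x i ^ 2 ≤ HY.sq x :=
    Finset.single_le_sum (f := fun j => x j ^ 2) (fun j _ => sq_nonneg _) (Finset.mem_univ i)
  rw [Real.norm_eq_abs]
  exact abs_le_one_iff_mul_self_le_one.2 (by nlinarith)

theorem coord_le {x : V n} (hx : x ∈ Bn n) (i : Fin n) : |x i| ≤ 1 := by
  have hx : HY.sq x < 1 := hx
  have h2 : x i ^ 2 ≤ HY.sq x :=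
    Finset.single_le_sum (f := fun j => x j ^ 2) (fun j _ => sq_nonneg _) (Finset.mem_univ i)
  exact abs_le_one_iff_mul_self_le_one.2 (by nlinarith)

/-- The cut-off. -/
def cut (e ρ : ℝ) (z : VV n) : ℝ := qq e ρ (rr z.1) * qq e ρ (rr z.2)

theorem cut_tf {e ρ : ℝ} (he : 0 < e) (hr : 0 < ρ) : TU (cut e ρ : VV n → ℝ) := by
  have hc : 0 < ρ * Real.exp (-(1 / e)) := by positivity
  set c := ρ * Real.exp (-(1 / e)) with hcd
  refine tf_of (K := {x : V n | c ≤ rr x} ×ˢ {x : V n | c ≤ rr x})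
    ((cpt_rr hc).prod (cpt_rr hc)) ?_ ?_ ?_
  · rintro ⟨x, y⟩ ⟨hx, hy⟩
    have hx : c ≤ rr x := hx
    have hy : c ≤ rr y := hy
    unfold rr at hx hy
    exact ⟨show HY.sq x < 1 by linarith, show HY.sq y < 1 by linarith⟩
  · have h1 : ContDiff ℝ ∞ fun z : VV n => qq e ρ (rr z.1) :=
      (qq_smooth he hr).comp (cont_rr.comp contDiff_fst)
    have h2 : ContDiff ℝ ∞ fun z : VV n => qq e ρ (rr z.2) :=
      (qq_smooth he hr).comp (cont_rr.comp contDiff_snd)
    exact (h1.mul h2).contDiffOn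
  · rintro ⟨x, y⟩ hz
    rw [mem_prod, not_and_or] at hz
    unfold cut
    rcases hz with h | h
    · rw [qq_small he hr (le_of_lt (not_le.1 h)), zero_mul]
    · rw [qq_small he hr (le_of_lt (not_le.1 h)), mul_zero]

theorem Ax_log {ρ : ℝ} (hr : 0 < ρ) {g : ℝ → ℝ} (hg : Differentiable ℝ g) (e : ℝ) (i : Fin n)
    {z : VV n} (hz : z ∈ Un n) :
    Ax i (fun z => g (1 + e * Real.log (rr z.1 / ρ))) z =
      -(z.1 i * (e * deriv g (1 + e * Real.log (rr z.1 / ρ)))) := by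
  have h1 := rx_pos hz
  have hr1 : HasFDerivAt (fun z : VV n => rr z.1) (fderiv ℝ (fun z : VV n => rr z.1) z) z :=
    (su_rx.diff hz).hasFDerivAt
  have hl : HasDerivAt (fun t => g (1 + e * Real.log (t / ρ)))
      (deriv g (1 + e * Real.log (rr z.1 / ρ)) * (e * (1 / ρ / (rr z.1 / ρ)))) (rr z.1) := by
    have a := ((hasDerivAt_id (rr z.1)).div_const ρ).log
      (by simp only [id_eq]; exact (div_pos h1 hr).ne')
    simp only [id_eq] at a
    have b := (a.const_mul e).const_add 1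
    exact (hg _).hasDerivAt.comp (rr z.1) b
  have hc := hl.comp_hasFDerivAt z hr1
  have hx := Ax_rx i hz
  simp only [Ax, dx] at hx ⊢
  have e1 : (fun z : VV n => g (1 + e * Real.log (rr z.1 / ρ))) =
      (fun t => g (1 + e * Real.log (t / ρ))) ∘ fun z : VV n => rr z.1 := rfl
  rw [e1, hc.fderiv]
  simp only [_root_.smul_apply, smul_eq_mul]
  have h3 : 1 / ρ / (rr z.1 / ρ) = (rr z.1)⁻¹ := by field_simp
  rw [h3]
  have h4 : rr z.1 * (fderiv ℝ (fun z : VV n => rr z.1) z) (Pi.single i 1, 0) =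
    -(z.1 i * rr z.1) := hx
  have h5 : (fderiv ℝ (fun z : VV n => rr z.1) z) (Pi.single i 1, 0) = -z.1 i := by
    apply mul_left_cancel₀ h1.ne'
    rw [h4]; ring
  rw [h5]
  field_simp

theorem su_log {ρ : ℝ} (hr : 0 < ρ) {g : ℝ → ℝ} (hg : ContDiff ℝ ∞ g) (e : ℝ) :
    SU fun z : VV n => g (1 + e * Real.log (rr z.1 / ρ)) := by
  intro z hz
  have h1 := rx_pos hz
  have hl : ContDiffWithinAt ℝ ∞ (fun z : VV n => Real.log (rr z.1 / ρ)) (Un n) z :=
    ((su_rx z hz).div_const ρ).log (div_pos h1 hr).ne'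
  exact hg.contDiffAt.comp_contDiffWithinAt z
    (contDiffWithinAt_const.add (contDiffWithinAt_const.mul hl))

theorem su_qy {e ρ : ℝ} (he : 0 < e) (hr : 0 < ρ) : SU fun z : VV n => qq e ρ (rr z.2) :=
  ((qq_smooth he hr).comp (cont_rr.comp contDiff_snd)).contDiffOn

theorem Ax_qy {e ρ : ℝ} (he : 0 < e) (hr : 0 < ρ) (i : Fin n) (z : VV n) :
    Ax i (fun z : VV n => qq e ρ (rr z.2)) z = 0 :=
  Ax_snd (φ := fun x => qq e ρ (rr x)) i
    (((qq_smooth he hr).comp cont_rr).differentiable (by simp) |>.differentiableAt)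

theorem Ax_cut {e ρ : ℝ} (he : 0 < e) (hr : 0 < ρ) (i : Fin n) {z : VV n} (hz : z ∈ Un n) :
    Ax i (cut e ρ) z =
      -(z.1 i * (e * S1 (1 + e * Real.log (rr z.1 / ρ))) * qq e ρ (rr z.2)) := by
  have e1 : Ax i (cut e ρ) z = Ax i (fun z => S0 (1 + e * Real.log (rr z.1 / ρ)) *
      qq e ρ (rr z.2)) z :=
    Ax_congr (fun z hz => by unfold cut; rw [qq_pos (rx_pos hz)]) i hz
  rw [e1, Ax_mul (su_log hr sm0 e) (su_qy he hr) i hz,
    Ax_log hr (sm0.differentiable (by simp)) e i hz, Ax_qy he hr]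
  ring

theorem Ax_Ax_cut {e ρ : ℝ} (he : 0 < e) (hr : 0 < ρ) (i j : Fin n) {z : VV n}
    (hz : z ∈ Un n) : Ax i (Ax j (cut e ρ)) z =
      (z.1 i * z.1 j * (e ^ 2 * S2 (1 + e * Real.log (rr z.1 / ρ))) -
        (if i = j then rr z.1 else 0) * (e * S1 (1 + e * Real.log (rr z.1 / ρ)))) *
        qq e ρ (rr z.2) := by
  have s1 := su_log (n := n) hr sm1 e
  have s2 : SU fun z : VV n => e * S1 (1 + e * Real.log (rr z.1 / ρ)) := contDiffOn_const.mul s1
  have s3 : SU fun z : VV n => z.1 j * (e * S1 (1 + e * Real.log (rr z.1 / ρ))) :=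
    (su_x j).mul s2
  have s4 : SU fun z : VV n => z.1 j * (e * S1 (1 + e * Real.log (rr z.1 / ρ))) *
    qq e ρ (rr z.2) := s3.mul (su_qy he hr)
  rw [Ax_congr (fun z hz => Ax_cut he hr j hz) i hz, Ax_neg s4 i hz,
    Ax_mul s3 (su_qy he hr) i hz, Ax_mul (su_x j) s2 i hz, Ax_cmul e s1 i hz, Ax_x,
    Ax_log hr (sm1.differentiable (by simp)) e i hz, Ax_qy he hr]
  ring

theorem exists_cut (n : ℕ) (d rho : ℝ) (hd : 0 < d) (hr : 0 < rho) :
    ∃ zeta : VV n → ℝ, TF (Un n) zeta ∧ (∀ z, 0 ≤ zeta z ∧ zeta z ≤ 1) ∧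
      (∀ z, zeta z.swap = zeta z) ∧ (∀ z ∈ Un n, ∀ i, |Ax i zeta z| ≤ d) ∧
      (∀ z ∈ Un n, ∀ i j, |Ax i (Ax j zeta) z| ≤ d) ∧
      (∀ z ∈ Un n, rho ≤ rr z.1 → rho ≤ rr z.2 → zeta z = 1) := by
  obtain ⟨M, hM, hM1, hM2⟩ := exists_bd
  obtain ⟨e, he, he1, hed⟩ : ∃ e : ℝ, 0 < e ∧ e ≤ 1 ∧ e * (2 * M) ≤ d := by
    refine ⟨min 1 (d / (2 * M + 1)), ?_, min_le_left _ _, ?_⟩
    · exact lt_min one_pos (by positivity)
    · calc min 1 (d / (2 * M + 1)) * (2 * M) ≤ d / (2 * M + 1) * (2 * M) :=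
          mul_le_mul_of_nonneg_right (min_le_right _ _) (by positivity)
        _ ≤ d := by
          rw [div_mul_eq_mul_div, div_le_iff₀ (by positivity)]
          nlinarith
  have hq : ∀ t, |qq e rho t| ≤ 1 := fun t => by
    rw [abs_of_nonneg (qq_nonneg _ _ _)]; exact qq_le _ _ _
  refine ⟨cut e rho, cut_tf he hr, fun z => ⟨mul_nonneg (qq_nonneg _ _ _) (qq_nonneg _ _ _),
    mul_le_one₀ (qq_le _ _ _) (qq_nonneg _ _ _) (qq_le _ _ _)⟩, fun z => ?_, ?_, ?_, ?_⟩
  · unfold cut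
    simp only [Prod.fst_swap, Prod.snd_swap]
    exact mul_comm _ _
  · intro z hz i
    rw [Ax_cut he hr i hz, abs_neg, abs_mul, abs_mul, abs_mul, abs_of_pos he]
    have h1 := coord_le hz.1 i
    have h2 := hM1 (1 + e * Real.log (rr z.1 / rho))
    have h3 := hq (rr z.2)
    have h4 : |z.1 i| * (e * |S1 (1 + e * Real.log (rr z.1 / rho))|) ≤ 1 * (e * M) :=
      mul_le_mul h1 (mul_le_mul_of_nonneg_left h2 he.le) (by positivity) zero_le_one
    calc _ ≤ (1 * (e * M)) * 1 := mul_le_mul h4 h3 (abs_nonneg _) (by positivity)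
      _ ≤ d := by nlinarith [mul_nonneg he.le hM]
  · intro z hz i j
    rw [Ax_Ax_cut he hr i j hz, abs_mul]
    have h1 := coord_le hz.1 i
    have h1' := coord_le hz.1 j
    have h2 := hM1 (1 + e * Real.log (rr z.1 / rho))
    have h2' := hM2 (1 + e * Real.log (rr z.1 / rho))
    have h3 := hq (rr z.2)
    have h5 : |z.1 i * z.1 j * (e ^ 2 * S2 (1 + e * Real.log (rr z.1 / rho)))| ≤ e * M := by
      rw [abs_mul, abs_mul, abs_mul, abs_of_pos (pow_pos he 2)]
      have a : |z.1 i| * |z.1 j| ≤ 1 * 1 := mul_le_mul h1 h1' (abs_nonneg _) zero_le_one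
      have b : e ^ 2 * |S2 (1 + e * Real.log (rr z.1 / rho))| ≤ e * M := by
        have : e ^ 2 ≤ e := by nlinarith
        exact mul_le_mul this h2' (abs_nonneg _) he.le
      calc _ ≤ (1 * 1) * (e * M) := mul_le_mul a b (by positivity) (by norm_num)
        _ = e * M := by ring
    have h6 : |(if i = j then rr z.1 else 0) * (e * S1 (1 + e * Real.log (rr z.1 / rho)))| ≤
        e * M := by
      rw [abs_mul, abs_mul, abs_of_pos he]
      have a : |if i = j then rr z.1 else 0| ≤ 1 := by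
        split_ifs
        · rw [abs_of_pos (rx_pos hz)]; linarith [rr_le z.1]
        · simp
      calc _ ≤ 1 * (e * M) := mul_le_mul a (mul_le_mul_of_nonneg_left h2 he.le)
            (by positivity) zero_le_one
        _ = e * M := by ring
    have h7 := abs_sub (z.1 i * z.1 j * (e ^ 2 * S2 (1 + e * Real.log (rr z.1 / rho))))
      ((if i = j then rr z.1 else 0) * (e * S1 (1 + e * Real.log (rr z.1 / rho))))
    calc _ ≤ (e * M + e * M) * 1 :=
          mul_le_mul (h7.trans (add_le_add h5 h6)) h3 (abs_nonneg _) (by positivity)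
      _ ≤ d := by linarith
  · intro z _ h1 h2
    unfold cut
    rw [qq_one he hr h1, qq_one he hr h2, one_mul]

end Vale.Agent.P088.R2.H205
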